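import Vale.Agent.Snaky.Game

namespace Vale.Agent.Snaky

/-- Parameters of a signed permutation plus translation. -/
structure Iso where
  swap : Bool
  a : ℤ
  b : ℤ
  t : Cell
  ha : a = 1 ∨ a = -1
  hb : b = 1 ∨ b = -1

def Iso.f (g : Iso) (p : Cell) : Cell := place g.swap g.a g.b g.t p

lemma sq_of_sign {a : ℤ} (h : a = 1 ∨ a = -1) : a * a = 1 := by
  rcases h with rfl | rfl <;> norm_num

def Iso.inv (g : Iso) : Iso :=
  if h : g.swap then
    { swap := true, a := g.b, b := g.a, t := (-(g.b * g.t.2), -(g.a * g.t.1)), ha := g.hb, hb := g.ha }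
  else
    { swap := false, a := g.a, b := g.b, t := (-(g.a * g.t.1), -(g.b * g.t.2)), ha := g.ha, hb := g.hb }

lemma Iso.f_inv (g : Iso) (p : Cell) : g.f (g.inv.f p) = p := by
  obtain ⟨s, a, b, ⟨t1, t2⟩, ha, hb⟩ := g
  obtain ⟨p1, p2⟩ := p
  rcases ha with rfl | rfl <;> rcases hb with rfl | rfl <;> cases s <;>
    simp only [Iso.f, Iso.inv, place, dite_true, dite_false, if_true, if_false,
      Bool.false_eq_true, Prod.mk.injEq] <;> constructor <;> ring

lemma Iso.inv_f (g : Iso) (p : Cell) : g.inv.f (g.f p) = p := by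
  obtain ⟨s, a, b, ⟨t1, t2⟩, ha, hb⟩ := g
  obtain ⟨p1, p2⟩ := p
  rcases ha with rfl | rfl <;> rcases hb with rfl | rfl <;> cases s <;>
    simp only [Iso.f, Iso.inv, place, dite_true, dite_false, if_true, if_false,
      Bool.false_eq_true, Prod.mk.injEq] <;> constructor <;> ring

lemma Iso.f_injective (g : Iso) : Function.Injective g.f := by
  intro p q h
  have := congrArg g.inv.f h
  simpa [Iso.inv_f] using this

/-- Composition stays in the family. -/
def Iso.comp (g h : Iso) : Iso :=
  if hs : g.swap then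
    if ht : h.swap then
      { swap := false, a := g.a * h.b, b := g.b * h.a,
        t := (g.a * h.t.2 + g.t.1, g.b * h.t.1 + g.t.2),
        ha := by rcases g.ha with h1 | h1 <;> rcases h.hb with h2 | h2 <;> simp [h1, h2],
        hb := by rcases g.hb with h1 | h1 <;> rcases h.ha with h2 | h2 <;> simp [h1, h2] }
    else
      { swap := true, a := g.a * h.b, b := g.b * h.a,
        t := (g.a * h.t.2 + g.t.1, g.b * h.t.1 + g.t.2),
        ha := by rcases g.ha with h1 | h1 <;> rcases h.hb with h2 | h2 <;> simp [h1, h2],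
        hb := by rcases g.hb with h1 | h1 <;> rcases h.ha with h2 | h2 <;> simp [h1, h2] }
  else
    if ht : h.swap then
      { swap := true, a := g.a * h.a, b := g.b * h.b,
        t := (g.a * h.t.1 + g.t.1, g.b * h.t.2 + g.t.2),
        ha := by rcases g.ha with h1 | h1 <;> rcases h.ha with h2 | h2 <;> simp [h1, h2],
        hb := by rcases g.hb with h1 | h1 <;> rcases h.hb with h2 | h2 <;> simp [h1, h2] }
    else
      { swap := false, a := g.a * h.a, b := g.b * h.b,
        t := (g.a * h.t.1 + g.t.1, g.b * h.t.2 + g.t.2),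
        ha := by rcases g.ha with h1 | h1 <;> rcases h.ha with h2 | h2 <;> simp [h1, h2],
        hb := by rcases g.hb with h1 | h1 <;> rcases h.hb with h2 | h2 <;> simp [h1, h2] }

lemma Iso.comp_f (g h : Iso) (p : Cell) : (g.comp h).f p = g.f (h.f p) := by
  obtain ⟨s1, a1, b1, ⟨t1, t2⟩, ha1, hb1⟩ := g
  obtain ⟨s2, a2, b2, ⟨u1, u2⟩, ha2, hb2⟩ := h
  obtain ⟨p1, p2⟩ := p
  cases s1 <;> cases s2 <;> simp only [Iso.f, Iso.comp, place, dite_true, dite_false, if_true, if_false, Bool.false_eq_true, Prod.mk.injEq] <;> constructor <;> ring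

lemma IsCopy.image (g : Iso) {C : Finset Cell} (h : IsCopy C) : IsCopy (C.image g.f) := by
  obtain ⟨s, a, b, t, ha, hb, rfl⟩ := h
  let h0 : Iso := ⟨s, a, b, t, ha, hb⟩
  refine ⟨(g.comp h0).swap, (g.comp h0).a, (g.comp h0).b, (g.comp h0).t, (g.comp h0).ha, (g.comp h0).hb, ?_⟩
  rw [Finset.image_image]
  apply Finset.image_congr
  intro p _
  have := Iso.comp_f g h0 p
  simpa [Iso.f, h0] using this.symm

lemma HasCopy.image (g : Iso) {M : Finset Cell} (h : HasCopy M) : HasCopy (M.image g.f) := by
  obtain ⟨C, hC, hCM⟩ := h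
  exact ⟨C.image g.f, IsCopy.image g hC, Finset.image_subset_image hCM⟩

lemma HasCopy.mono {M N : Finset Cell} (h : HasCopy M) (hMN : M ⊆ N) : HasCopy N := by
  obtain ⟨C, hC, hCM⟩ := h
  exact ⟨C, hC, hCM.trans hMN⟩

theorem MakerWinsWithin.image (g : Iso) :
    ∀ (n : ℕ) (M B : Finset Cell), MakerWinsWithin n M B →
      MakerWinsWithin n (M.image g.f) (B.image g.f)
  | 0, _, _, h => h
  | n + 1, M, B, h => by
    obtain ⟨m, hm1, hm2, h3⟩ := h
    have hinj := g.f_injective
    refine ⟨g.f m, ?_, ?_, ?_⟩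
    · simpa [Finset.mem_image, hinj.eq_iff] using hm1
    · simpa [Finset.mem_image, hinj.eq_iff] using hm2
    · rcases h3 with h3 | h3
      · left
        have := HasCopy.image g h3
        rwa [Finset.image_insert] at this
      · right
        intro b' hb1 hb2
        have hb1' : g.inv.f b' ∉ insert m M := by
          intro hc
          apply hb1
          rw [← Finset.image_insert]
          refine Finset.mem_image.mpr ⟨_, hc, g.f_inv b'⟩
        have hb2' : g.inv.f b' ∉ B := by
          intro hc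
          apply hb2
          exact Finset.mem_image.mpr ⟨_, hc, g.f_inv b'⟩
        have := MakerWinsWithin.image g n _ _ (h3 _ hb1' hb2')
        rw [Finset.image_insert, Finset.image_insert, g.f_inv] at this
        exact this

theorem MakerWinsWithin.mono :
    ∀ (n : ℕ) (M B : Finset Cell), MakerWinsWithin n M B → MakerWinsWithin (n + 1) M B
  | 0, _, _, h => h.elim
  | n + 1, M, B, h => by
    obtain ⟨m, hm1, hm2, h3⟩ := h
    refine ⟨m, hm1, hm2, ?_⟩
    rcases h3 with h3 | h3
    · exact Or.inl h3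
    · exact Or.inr fun b hb1 hb2 => MakerWinsWithin.mono n _ _ (h3 b hb1 hb2)

theorem MakerWinsWithin.mono_le {n k : ℕ} (hnk : n ≤ k) {M B : Finset Cell}
    (h : MakerWinsWithin n M B) : MakerWinsWithin k M B := by
  induction hnk with
  | refl => exact h
  | step _ ih => exact MakerWinsWithin.mono _ _ _ ih

end Vale.Agent.Snaky
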