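import Vale.Agent.Snaky.Core
import Vale.Agent.Snaky.Sym

/-!
Soundness of the bit-mask certificates of `Vale.Agent.Snaky.Core`.
-/

namespace Vale.Agent.Snaky

/-- The cell with a given code. -/
def dec (c : ℕ) : Cell := (((c % 64 : ℕ) : ℤ), ((c / 64 : ℕ) : ℤ))

lemma dec_inj {c d : ℕ} (h : dec c = dec d) : c = d := by
  simp only [dec, Prod.mk.injEq, Nat.cast_inj] at h
  omega

/-- All bits of `a` are bits of `b`. -/
def Sub (a b : ℕ) : Prop := ∀ c, a.testBit c = true → b.testBit c = true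

/-- All bits of `U` lie in the square `x < 32`, `y < 32`. -/
def XG (U : ℕ) : Prop := ∀ c, U.testBit c = true → c % 64 < 32 ∧ c < 2048

/-- Maker-to-move statement attached to masks. -/
def GoodM (d M0 B0 U : ℕ) : Prop :=
  ∀ M B : Finset Cell, (∀ c, M0.testBit c = true → dec c ∈ M) →
    (∀ c, U.testBit c = true → dec c ∈ B → B0.testBit c = true) → MakerWinsWithin d M B

/-- Breaker-to-move statement attached to masks. -/
def GoodB (d M0 B0 U : ℕ) : Prop :=
  ∀ M B : Finset Cell, (∀ c, M0.testBit c = true → dec c ∈ M) →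
    (∀ c, U.testBit c = true → dec c ∈ B → B0.testBit c = true) →
    ∀ b, b ∉ M → b ∉ B → MakerWinsWithin d M (insert b B)

lemma GoodM.depth_mono {d e M0 B0 U : ℕ} (h : GoodM d M0 B0 U) (hde : d ≤ e) : GoodM e M0 B0 U :=
  fun M B h1 h2 => MakerWinsWithin.mono_le hde (h M B h1 h2)

lemma GoodB.depth_mono {d e M0 B0 U : ℕ} (h : GoodB d M0 B0 U) (hde : d ≤ e) : GoodB e M0 B0 U :=
  fun M B h1 h2 b hb1 hb2 => MakerWinsWithin.mono_le hde (h M B h1 h2 b hb1 hb2)

lemma image_image_inv (g : Iso) (S : Finset Cell) : (S.image g.inv.f).image g.f = S := by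
  rw [Finset.image_image]
  have : g.f ∘ g.inv.f = id := funext g.f_inv
  rw [this, Finset.image_id]

/-- Transfer of the Maker statement along an isometry. -/
lemma GoodM.transfer {d M0 B0 U M1 B1 U1 : ℕ} (g : Iso) (k : ℕ → ℕ)
    (hk : ∀ c, U.testBit c = true → g.f (dec c) = dec (k c)) (hMU : Sub M0 U)
    (hM : ∀ c, M0.testBit c = true → M1.testBit (k c) = true)
    (hU : ∀ c, U.testBit c = true → U1.testBit (k c) = true)
    (hB : ∀ c, U.testBit c = true → B1.testBit (k c) = true → B0.testBit c = true)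
    (h : GoodM d M0 B0 U) : GoodM d M1 B1 U1 := by
  intro M B h1 h2
  have := h (M.image g.inv.f) (B.image g.inv.f) ?_ ?_
  · have h3 := MakerWinsWithin.image g d _ _ this
    rwa [image_image_inv, image_image_inv] at h3
  · intro c hc
    have h4 := h1 _ (hM c hc)
    rw [← hk c (hMU c hc)] at h4
    exact Finset.mem_image.mpr ⟨_, h4, g.inv_f _⟩
  · intro c hc hmem
    obtain ⟨p, hp, hpc⟩ := Finset.mem_image.mp hmem
    have hp' : p = g.f (dec c) := by
      rw [← hpc, g.f_inv]
    rw [hp', hk c hc] at hp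
    exact hB c hc (h2 _ (hU c hc) hp)

/-- Transfer of the Breaker statement along an isometry. -/
lemma GoodB.transfer {d M0 B0 U M1 B1 U1 : ℕ} (g : Iso) (k : ℕ → ℕ)
    (hk : ∀ c, U.testBit c = true → g.f (dec c) = dec (k c)) (hMU : Sub M0 U)
    (hM : ∀ c, M0.testBit c = true → M1.testBit (k c) = true)
    (hU : ∀ c, U.testBit c = true → U1.testBit (k c) = true)
    (hB : ∀ c, U.testBit c = true → B1.testBit (k c) = true → B0.testBit c = true)
    (h : GoodB d M0 B0 U) : GoodB d M1 B1 U1 := by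
  intro M B h1 h2 b hb1 hb2
  have := h (M.image g.inv.f) (B.image g.inv.f) ?_ ?_ (g.inv.f b) ?_ ?_
  · have h3 := MakerWinsWithin.image g d _ _ this
    rw [Finset.image_insert, g.f_inv] at h3
    rwa [image_image_inv, image_image_inv] at h3
  · intro c hc
    have h4 := h1 _ (hM c hc)
    rw [← hk c (hMU c hc)] at h4
    exact Finset.mem_image.mpr ⟨_, h4, g.inv_f _⟩
  · intro c hc hmem
    obtain ⟨p, hp, hpc⟩ := Finset.mem_image.mp hmem
    have hp' : p = g.f (dec c) := by
      rw [← hpc, g.f_inv]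
    rw [hp', hk c hc] at hp
    exact hB c hc (h2 _ (hU c hc) hp)
  · intro hmem
    obtain ⟨p, hp, hpc⟩ := Finset.mem_image.mp hmem
    have : p = b := by
      have h5 := congrArg g.f hpc
      rwa [g.f_inv, g.f_inv] at h5
    exact hb1 (this ▸ hp)
  · intro hmem
    obtain ⟨p, hp, hpc⟩ := Finset.mem_image.mp hmem
    have : p = b := by
      have h5 := congrArg g.f hpc
      rwa [g.f_inv, g.f_inv] at h5
    exact hb2 (this ▸ hp)

/-- Translation by a shift of codes. -/
def shiftIso (s : ℕ) : Iso :=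
  ⟨false, (1), (1), (((s % 64 : ℕ) : ℤ), ((s / 64 : ℕ) : ℤ)), Or.inl rfl, Or.inl rfl⟩

lemma shiftIso_f {s c : ℕ} (hs : s % 64 < 32) (hc : c % 64 < 32) :
    (shiftIso s).f (dec c) = dec (c + s) := by
  simp only [shiftIso, Iso.f, place, dec, Bool.false_eq_true, if_false, one_mul, Prod.mk.injEq]
  constructor
  · have : (c + s) % 64 = c % 64 + s % 64 := by omega
    rw [this]; push_cast; ring
  · have : (c + s) / 64 = c / 64 + s / 64 := by omega
    rw [this]; push_cast; ring

lemma testBit_shiftRight' (x s c : ℕ) : (Nat.shiftRight x s).testBit c = x.testBit (c + s) := by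
  have : Nat.shiftRight x s = x >>> s := rfl
  rw [this, Nat.testBit_shiftRight, Nat.add_comm]

lemma testBit_land' (x y c : ℕ) : (Nat.land x y).testBit c = (x.testBit c && y.testBit c) := by
  have : Nat.land x y = x &&& y := rfl
  rw [this, Nat.testBit_and]

lemma testBit_lor' (x y c : ℕ) : (Nat.lor x y).testBit c = (x.testBit c || y.testBit c) := by
  have : Nat.lor x y = x ||| y := rfl
  rw [this, Nat.testBit_or]

lemma testBit_xor' (x y c : ℕ) : (Nat.xor x y).testBit c = (x.testBit c ^^ y.testBit c) := by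
  have : Nat.xor x y = x ^^^ y := rfl
  rw [this, Nat.testBit_xor]

lemma testBit_pow2 (n c : ℕ) : (Nat.shiftLeft 1 n).testBit c = decide (n = c) := by
  have : Nat.shiftLeft 1 n = 2 ^ n := by
    have h : Nat.shiftLeft 1 n = 1 <<< n := rfl
    rw [h, Nat.shiftLeft_eq, one_mul]
  rw [this, Nat.testBit_two_pow]

lemma testBit_shiftLeft' (x s c : ℕ) :
    (Nat.shiftLeft x s).testBit c = (decide (c ≥ s) && x.testBit (c - s)) := by
  have : Nat.shiftLeft x s = x <<< s := rfl
  rw [this, Nat.testBit_shiftLeft]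

/-! ### Reading off tests that return `0` -/

lemma lor_zero {a b : ℕ} (h : Nat.lor a b = 0) : a = 0 ∧ b = 0 := by
  have h' : a ||| b = 0 := h
  exact Nat.or_eq_zero_iff.mp h'

lemma xor_zero {a b : ℕ} (h : Nat.xor a b = 0) : a = b := by
  have h' : a ^^^ b = 0 := h
  exact Nat.xor_eq_zero_iff.mp h'

lemma sub_zero_le {a b : ℕ} (h : Nat.sub a b = 0) : a ≤ b := by
  have h' : a - b = 0 := h
  omega

lemma sub_of_xor {a b : ℕ} (h : Nat.xor a (Nat.land a b) = 0) : Sub a b := by
  intro c hc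
  have h1 := xor_zero h
  rw [h1, testBit_land'] at hc
  simp only [Bool.and_eq_true] at hc
  exact hc.2

lemma bit_of_land {x n : ℕ} (h : Nat.xor (Nat.land (Nat.shiftRight x n) 1) 1 = 0) :
    x.testBit n = true := by
  have h1 := xor_zero h
  have h2 : (Nat.land (Nat.shiftRight x n) 1).testBit 0 = true := by
    rw [h1]; rfl
  rw [testBit_land', testBit_shiftRight'] at h2
  simp only [Bool.and_eq_true, Nat.zero_add] at h2
  exact h2.1

lemma nbit_of_land {x n : ℕ} (h : Nat.land (Nat.shiftRight x n) 1 = 0) :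
    x.testBit n = false := by
  have h2 : (Nat.land (Nat.shiftRight x n) 1).testBit 0 = false := by
    rw [h]; rfl
  rw [testBit_land', testBit_shiftRight'] at h2
  simpa using h2

lemma land32 {s : ℕ} (h : Nat.land s 32 = 0) : s % 64 < 32 := by
  have h2 : (Nat.land s 32).testBit 5 = false := by
    rw [h]; rfl
  rw [testBit_land'] at h2
  have h3 : Nat.testBit 32 5 = true := by decide
  rw [h3, Bool.and_true, Nat.testBit_eq_decide_div_mod_eq] at h2
  simp only [decide_eq_false_iff_not] at h2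
  omega

/-! ### Shifted statements -/

/-- Shifted Maker statement. -/
lemma GoodM.shift {d M0 B0 U M1 B1 U1 s : ℕ} (h : GoodM d M0 B0 U) (hXG : XG U) (hMU : Sub M0 U)
    (hs : s % 64 < 32) (h1 : Sub M0 (Nat.shiftRight M1 s))
    (h2 : ∀ q, U.testBit q = true → (Nat.shiftRight B1 s).testBit q = true → B0.testBit q = true)
    (h3 : Sub U (Nat.shiftRight U1 s)) :
    GoodM d M1 B1 U1 := by
  refine GoodM.transfer (shiftIso s) (fun c => c + s) ?_ hMU ?_ ?_ ?_ h
  · intro c hc
    exact shiftIso_f hs (hXG c hc).1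
  · intro c hc
    have := h1 c hc
    rwa [testBit_shiftRight'] at this
  · intro c hc
    have := h3 c hc
    rwa [testBit_shiftRight'] at this
  · intro c hc hb
    apply h2 c hc
    rw [testBit_shiftRight']
    exact hb

/-- Shifted Breaker statement. -/
lemma GoodB.shift {d M0 B0 U M1 B1 U1 s : ℕ} (h : GoodB d M0 B0 U) (hXG : XG U) (hMU : Sub M0 U)
    (hs : s % 64 < 32) (h1 : Sub M0 (Nat.shiftRight M1 s))
    (h2 : ∀ q, U.testBit q = true → (Nat.shiftRight B1 s).testBit q = true → B0.testBit q = true)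
    (h3 : Sub U (Nat.shiftRight U1 s)) :
    GoodB d M1 B1 U1 := by
  refine GoodB.transfer (shiftIso s) (fun c => c + s) ?_ hMU ?_ ?_ ?_ h
  · intro c hc
    exact shiftIso_f hs (hXG c hc).1
  · intro c hc
    have := h1 c hc
    rwa [testBit_shiftRight'] at this
  · intro c hc
    have := h3 c hc
    rwa [testBit_shiftRight'] at this
  · intro c hc hb
    apply h2 c hc
    rw [testBit_shiftRight']
    exact hb

/-! ### The guard mask -/

lemma guardG_spec : ∀ c, c < 2048 → 32 ≤ c % 64 → guardG.testBit c = true := by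
  decide +kernel

/-! ### The semantics of an entry -/

/-- Kinds of Maker statements. -/
def IsM (k : ℕ) : Prop := Nat.testBit 11 k = true
/-- Kinds of Breaker statements. -/
def IsB (k : ℕ) : Prop := Nat.testBit 20 k = true

/-- What an entry states. -/
def Ent.Sem (e : Ent) : Prop :=
  Sub e.M e.U ∧ Sub e.B e.U ∧ XG e.U ∧ (IsM e.kind → GoodM e.depth e.M e.B e.U) ∧
    (IsB e.kind → GoodB e.depth e.M e.B e.U)

lemma wf_spec {M B U : ℕ} (h : wfV M B U = 0) : Sub M U ∧ Sub B U ∧ XG U := by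
  obtain ⟨h1, h2⟩ := lor_zero h
  obtain ⟨h2, h3⟩ := lor_zero h2
  obtain ⟨h3, h4⟩ := lor_zero h3
  refine ⟨sub_of_xor h1, sub_of_xor h2, ?_⟩
  intro c hc
  have hlt : c < 2048 := by
    by_contra hge
    have h5 : (Nat.shiftRight U 2048).testBit (c - 2048) = true := by
      rw [testBit_shiftRight']
      have : c - 2048 + 2048 = c := by omega
      rwa [this]
    rw [h4] at h5
    simp at h5
  refine ⟨?_, hlt⟩
  by_contra hcon
  have h6 := guardG_spec c hlt (by omega)
  have h7 : (Nat.land U guardG).testBit c = true := by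
    rw [testBit_land', hc, h6]; rfl
  rw [h3] at h7
  simp at h7

/-- The content of the reference test. -/
lemma rV_spec {wm d M B U s k d' m b u : ℕ} (h : rV wm d M B U s k d' m b u = 0) :
    wm.testBit k = true ∧ d' ≤ d ∧ s % 64 < 32 ∧ Sub m (Nat.shiftRight M s) ∧
      (∀ q, u.testBit q = true → (Nat.shiftRight B s).testBit q = true → b.testBit q = true) ∧
      Sub u (Nat.shiftRight U s) := by
  obtain ⟨h1, h2⟩ := lor_zero h
  obtain ⟨h2, h3⟩ := lor_zero h2
  obtain ⟨h3, h4⟩ := lor_zero h3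
  obtain ⟨h4, h5⟩ := lor_zero h4
  obtain ⟨h5, h6⟩ := lor_zero h5
  refine ⟨bit_of_land h1, sub_zero_le h2, land32 h3, sub_of_xor h4, ?_, sub_of_xor h6⟩
  intro q hq hbq
  have h7 : (Nat.land (Nat.shiftRight B s) (Nat.xor u b)).testBit q = false := by
    rw [h5]; simp
  rw [testBit_land', hbq, testBit_xor', hq] at h7
  simpa using h7

lemma rRef_M {tbl : ℕ → Ent} {i d M B U r B1 : ℕ} (hs : ∀ j < i, (tbl j).Sem)
    (h : rRef tbl 11 i d M B U r = 0)
    (hB1 : ∀ q, (tbl (Nat.shiftRight r 12)).U.testBit q = true →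
      (Nat.shiftRight B1 (Nat.land r 4095)).testBit q = true →
      (tbl (Nat.shiftRight r 12)).B.testBit q = true) : GoodM d M B1 U := by
  obtain ⟨h1, h2⟩ := lor_zero h
  have hlt : Nat.shiftRight r 12 < i := by
    have := sub_zero_le h1
    exact this
  have hS := hs _ hlt
  revert h2 hS hB1
  generalize tbl (Nat.shiftRight r 12) = e
  obtain ⟨k, d', m, b, u, y⟩ := e
  intro hB1 h2 hS
  obtain ⟨s1, _, s3, s4, _⟩ := hS
  obtain ⟨r1, r2, r3, r4, _, r6⟩ := rV_spec h2
  exact (GoodM.shift (s4 r1) s3 s1 r3 r4 hB1 r6).depth_mono r2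

lemma rRef_B {tbl : ℕ → Ent} {i d M B U r : ℕ} (hs : ∀ j < i, (tbl j).Sem)
    (h : rRef tbl 20 i d M B U r = 0) : GoodB d M B U := by
  obtain ⟨h1, h2⟩ := lor_zero h
  have hlt : Nat.shiftRight r 12 < i := by
    have := sub_zero_le h1
    exact this
  have hS := hs _ hlt
  revert h2 hS
  generalize tbl (Nat.shiftRight r 12) = e
  obtain ⟨k, d', m, b, u, y⟩ := e
  intro h2 hS
  obtain ⟨s1, _, s3, _, s5⟩ := hS
  obtain ⟨r1, r2, r3, r4, r5, r6⟩ := rV_spec h2
  exact (GoodB.shift (s5 r1) s3 s1 r3 r4 r5 r6).depth_mono r2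

/-! ### The copies -/

lemma lookup6 {P : ℕ → Prop} {a b c d e f : ℕ} (h1 : P a) (h2 : P b) (h3 : P c) (h4 : P d)
    (h5 : P e) (h6 : P f) : ∀ x ∈ ([a, b, c, d, e, f] : List ℕ), P x := by
  intro x hx
  simp only [List.mem_cons, List.not_mem_nil, or_false] at hx
  rcases hx with rfl | rfl | rfl | rfl | rfl | rfl <;> assumption

lemma baseMask_copy (o : ℕ) (ho : o < 8) :
    ∃ C, IsCopy C ∧ ∀ p ∈ C, ∃ c, (baseMask o).testBit c = true ∧ dec c = p := by
  interval_cases o
  · refine ⟨_, ⟨false, (1), (1), (0, 0), by norm_num, by norm_num, rfl⟩, ?_⟩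
    have key : ∀ p ∈ snakyShape, ∃ c ∈ ([0, 1, 2, 3, 67, 68] : List ℕ), (baseMask 0).testBit c = true ∧ dec c = place false (1) (1) (0, 0) p := by decide
    intro p hp
    obtain ⟨q, hq, rfl⟩ := Finset.mem_image.mp hp
    obtain ⟨c, _, h1, h2⟩ := key q hq
    exact ⟨c, h1, h2⟩
  · refine ⟨_, ⟨false, (1), (-1), (0, 1), by norm_num, by norm_num, rfl⟩, ?_⟩
    have key : ∀ p ∈ snakyShape, ∃ c ∈ ([64, 65, 66, 67, 3, 4] : List ℕ), (baseMask 1).testBit c = true ∧ dec c = place false (1) (-1) (0, 1) p := by decide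
    intro p hp
    obtain ⟨q, hq, rfl⟩ := Finset.mem_image.mp hp
    obtain ⟨c, _, h1, h2⟩ := key q hq
    exact ⟨c, h1, h2⟩
  · refine ⟨_, ⟨false, (-1), (1), (4, 0), by norm_num, by norm_num, rfl⟩, ?_⟩
    have key : ∀ p ∈ snakyShape, ∃ c ∈ ([4, 3, 2, 1, 65, 64] : List ℕ), (baseMask 2).testBit c = true ∧ dec c = place false (-1) (1) (4, 0) p := by decide
    intro p hp
    obtain ⟨q, hq, rfl⟩ := Finset.mem_image.mp hp
    obtain ⟨c, _, h1, h2⟩ := key q hq
    exact ⟨c, h1, h2⟩
  · refine ⟨_, ⟨false, (-1), (-1), (4, 1), by norm_num, by norm_num, rfl⟩, ?_⟩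
    have key : ∀ p ∈ snakyShape, ∃ c ∈ ([68, 67, 66, 65, 1, 0] : List ℕ), (baseMask 3).testBit c = true ∧ dec c = place false (-1) (-1) (4, 1) p := by decide
    intro p hp
    obtain ⟨q, hq, rfl⟩ := Finset.mem_image.mp hp
    obtain ⟨c, _, h1, h2⟩ := key q hq
    exact ⟨c, h1, h2⟩
  · refine ⟨_, ⟨true, (1), (1), (0, 0), by norm_num, by norm_num, rfl⟩, ?_⟩
    have key : ∀ p ∈ snakyShape, ∃ c ∈ ([0, 64, 128, 192, 193, 257] : List ℕ), (baseMask 4).testBit c = true ∧ dec c = place true (1) (1) (0, 0) p := by decide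
    intro p hp
    obtain ⟨q, hq, rfl⟩ := Finset.mem_image.mp hp
    obtain ⟨c, _, h1, h2⟩ := key q hq
    exact ⟨c, h1, h2⟩
  · refine ⟨_, ⟨true, (1), (-1), (0, 4), by norm_num, by norm_num, rfl⟩, ?_⟩
    have key : ∀ p ∈ snakyShape, ∃ c ∈ ([256, 192, 128, 64, 65, 1] : List ℕ), (baseMask 5).testBit c = true ∧ dec c = place true (1) (-1) (0, 4) p := by decide
    intro p hp
    obtain ⟨q, hq, rfl⟩ := Finset.mem_image.mp hp
    obtain ⟨c, _, h1, h2⟩ := key q hq
    exact ⟨c, h1, h2⟩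
  · refine ⟨_, ⟨true, (-1), (1), (1, 0), by norm_num, by norm_num, rfl⟩, ?_⟩
    have key : ∀ p ∈ snakyShape, ∃ c ∈ ([1, 65, 129, 193, 192, 256] : List ℕ), (baseMask 6).testBit c = true ∧ dec c = place true (-1) (1) (1, 0) p := by decide
    intro p hp
    obtain ⟨q, hq, rfl⟩ := Finset.mem_image.mp hp
    obtain ⟨c, _, h1, h2⟩ := key q hq
    exact ⟨c, h1, h2⟩
  · refine ⟨_, ⟨true, (-1), (-1), (1, 4), by norm_num, by norm_num, rfl⟩, ?_⟩
    have key : ∀ p ∈ snakyShape, ∃ c ∈ ([257, 193, 129, 65, 64, 0] : List ℕ), (baseMask 7).testBit c = true ∧ dec c = place true (-1) (-1) (1, 4) p := by decide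
    intro p hp
    obtain ⟨q, hq, rfl⟩ := Finset.mem_image.mp hp
    obtain ⟨c, _, h1, h2⟩ := key q hq
    exact ⟨c, h1, h2⟩

/-! ### Soundness of the kinds -/

lemma exists_free (M B : Finset Cell) : ∃ m : Cell, m ∉ M ∧ m ∉ B := by
  obtain ⟨m, hm⟩ := Infinite.exists_notMem_finset (M ∪ B)
  exact ⟨m, fun h => hm (Finset.mem_union_left _ h), fun h => hm (Finset.mem_union_right _ h)⟩

lemma land7_lt (x : ℕ) : Nat.land x 7 < 8 := by
  have : Nat.land x 7 = x &&& 7 := rfl
  rw [this]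
  exact Nat.lt_succ_of_le Nat.and_le_right

lemma sem0 {d M B U x : ℕ} (h : chk0 d M B U x = 0) : GoodM d M B U := by
  obtain ⟨h1, h2⟩ := lor_zero h
  obtain ⟨h2, h3⟩ := lor_zero h2
  obtain ⟨h3, h4⟩ := lor_zero h3
  have hd := sub_zero_le h1
  have hU : U = baseMask (Nat.land x 7) := xor_zero h2
  have hMU : Nat.lor M (Nat.shiftLeft 1 (Nat.shiftRight x 3)) = U := xor_zero h3
  have hB : B = 0 := h4
  obtain ⟨C, hC, hCU⟩ := baseMask_copy (Nat.land x 7) (land7_lt x)
  set m := Nat.shiftRight x 3 with hm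
  intro Ma Ba hMa hBa
  obtain ⟨d', rfl⟩ : ∃ d', d = d' + 1 := ⟨d - 1, by omega⟩
  have hinU : ∀ c, U.testBit c = true → M.testBit c = true ∨ c = m := by
    intro c hc
    rw [← hMU, testBit_lor', testBit_pow2] at hc
    simp only [Bool.or_eq_true, decide_eq_true_eq] at hc
    rcases hc with hc | hc
    · exact Or.inl hc
    · exact Or.inr hc.symm
  have hmU : U.testBit m = true := by
    rw [← hMU, testBit_lor', testBit_pow2]
    simp
  have hnotB : ∀ c, U.testBit c = true → dec c ∉ Ba := by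
    intro c hc hcB
    have := hBa c hc hcB
    rw [hB] at this
    simp at this
  by_cases hmMa : dec m ∈ Ma
  · obtain ⟨m', h1', h2'⟩ := exists_free Ma Ba
    refine ⟨m', h1', h2', Or.inl ⟨C, hC, ?_⟩⟩
    intro p hp
    obtain ⟨c, hc, rfl⟩ := hCU p hp
    rw [← hU] at hc
    rcases hinU c hc with hc' | hc'
    · exact Finset.mem_insert_of_mem (hMa c hc')
    · rw [hc']; exact Finset.mem_insert_of_mem hmMa
  · refine ⟨dec m, hmMa, hnotB m hmU, Or.inl ⟨C, hC, ?_⟩⟩
    intro p hp
    obtain ⟨c, hc, rfl⟩ := hCU p hp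
    rw [← hU] at hc
    rcases hinU c hc with hc' | hc'
    · exact Finset.mem_insert_of_mem (hMa c hc')
    · rw [hc']; exact Finset.mem_insert_self _ _

lemma sem1 {tbl : ℕ → Ent} {i d M B U x : ℕ} (hs : ∀ j < i, (tbl j).Sem)
    (h : chk1 tbl i d M B U x = 0) : GoodM d M B U := by
  obtain ⟨h1, h2⟩ := lor_zero h
  obtain ⟨h2, h3⟩ := lor_zero h2
  obtain ⟨h3, h4⟩ := lor_zero h3
  obtain ⟨h4, h5⟩ := lor_zero h4
  have hd := sub_zero_le h1
  have hc := rRef_B hs h5
  have h2' := bit_of_land h2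
  have h4' := nbit_of_land h4
  set m := Nat.shiftRight x 32 with hm
  intro Ma Ba hMa hBa
  obtain ⟨d', rfl⟩ : ∃ d', d = d' + 1 := ⟨d - 1, by omega⟩
  have hd' : Nat.sub (d' + 1) 1 = d' := by
    show d' + 1 - 1 = d'
    omega
  rw [hd'] at hc
  have hm_notB : dec m ∉ Ba := by
    intro hcon
    have := hBa m h2' hcon
    rw [this] at h4'
    exact Bool.noConfusion h4'
  by_cases hmMa : dec m ∈ Ma
  · obtain ⟨m', h1', h2''⟩ := exists_free Ma Ba
    refine ⟨m', h1', h2'', Or.inr ?_⟩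
    intro b hb1 hb2
    refine hc (insert m' Ma) Ba ?_ hBa b hb1 hb2
    intro c hc'
    rw [testBit_lor', testBit_pow2] at hc'
    simp only [Bool.or_eq_true, decide_eq_true_eq] at hc'
    rcases hc' with hc' | hc'
    · exact Finset.mem_insert_of_mem (hMa c hc')
    · rw [← hc']; exact Finset.mem_insert_of_mem hmMa
  · refine ⟨dec m, hmMa, hm_notB, Or.inr ?_⟩
    intro b hb1 hb2
    refine hc (insert (dec m) Ma) Ba ?_ hBa b hb1 hb2
    intro c hc'
    rw [testBit_lor', testBit_pow2] at hc'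
    simp only [Bool.or_eq_true, decide_eq_true_eq] at hc'
    rcases hc' with hc' | hc'
    · exact Finset.mem_insert_of_mem (hMa c hc')
    · rw [← hc']; exact Finset.mem_insert_self _ _

/-- One step of the loop of kind `2`: what a reference gives. -/
lemma k2_step {tbl : ℕ → Ent} {i d M B U st A n : ℕ} (hs : ∀ j < i, (tbl j).Sem)
    (h : k2Loop tbl i d M B U (n + 1) st A = 0) :
    GoodM d M B U ∧
    (∀ c, A.testBit c = true → GoodM d M (Nat.lor B (Nat.shiftLeft 1 c)) U ∨
      ∃ A', (A').testBit c = true ∧ k2Loop tbl i d M B U n (Nat.shiftRight st 32) A' = 0) := by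
  have h0 : k2Loop tbl i d M B U (n + 1) st A =
      Nat.lor (Nat.sub (Nat.succ (Nat.shiftRight (Nat.land st 4294967295) 12)) i)
        (Ent.rec (motive := fun _ => Nat)
          (fun k d' m b u _ =>
            Nat.lor (rV 11 d M B U (Nat.land st 4095) k d' m b u)
              (k2Loop tbl i d M B U n (Nat.shiftRight st 32)
                (Nat.land A (Nat.shiftLeft (Nat.xor u b) (Nat.land st 4095)))))
          (tbl (Nat.shiftRight (Nat.land st 4294967295) 12))) := rfl
  rw [h0] at h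
  obtain ⟨h1, h2⟩ := lor_zero h
  have hlt : Nat.shiftRight (Nat.land st 4294967295) 12 < i := sub_zero_le h1
  have hS := hs _ hlt
  revert h2 hS
  generalize tbl (Nat.shiftRight (Nat.land st 4294967295) 12) = e
  obtain ⟨k, d', m, b, u, y⟩ := e
  intro h2 hS
  obtain ⟨h3, h4⟩ := lor_zero h2
  obtain ⟨s1, _, s3, s4, _⟩ := hS
  obtain ⟨r1, r2, r3, r4, r5, r6⟩ := rV_spec h3
  have hgood := s4 r1
  refine ⟨(GoodM.shift hgood s3 s1 r3 r4 r5 r6).depth_mono r2, ?_⟩
  intro c hc
  by_cases hW : (Nat.shiftLeft (Nat.xor u b) (Nat.land st 4095)).testBit c = true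
  · right
    refine ⟨_, ?_, h4⟩
    rw [testBit_land', hc, hW]
    rfl
  · left
    refine (GoodM.shift hgood s3 s1 r3 r4 ?_ r6).depth_mono r2
    intro q hq hbq
    rw [testBit_shiftRight', testBit_lor', testBit_pow2] at hbq
    simp only [Bool.or_eq_true, decide_eq_true_eq] at hbq
    rcases hbq with hbq | hbq
    · apply r5 q hq
      rw [testBit_shiftRight']
      exact hbq
    · rw [testBit_shiftLeft', testBit_xor', hbq] at hW
      have h5 : q + Nat.land st 4095 - Nat.land st 4095 = q := by omega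
      have h6 : decide (q + Nat.land st 4095 ≥ Nat.land st 4095) = true := by simp
      rw [h5, h6, hq] at hW
      by_contra hcon
      apply hW
      have hcon' : b.testBit q = false := by simpa using hcon
      rw [hcon']
      rfl

lemma k2_all {tbl : ℕ → Ent} {i d M B U : ℕ} (hs : ∀ j < i, (tbl j).Sem) :
    ∀ (n st A : ℕ), k2Loop tbl i d M B U n st A = 0 →
      ∀ c, A.testBit c = true → GoodM d M (Nat.lor B (Nat.shiftLeft 1 c)) U
  | 0, _, A, h, c, hc => by
    have h' : A = 0 := h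
    rw [h'] at hc
    simp at hc
  | n + 1, st, A, h, c, hc => by
    rcases (k2_step hs h).2 c hc with h1 | ⟨A', h1, h2⟩
    · exact h1
    · exact k2_all hs n _ A' h2 c h1

lemma sem2 {tbl : ℕ → Ent} {i d M B U x : ℕ} (hs : ∀ j < i, (tbl j).Sem)
    (h : chk2 tbl i d M B U x = 0) : GoodB d M B U := by
  obtain ⟨h1, h2⟩ := lor_zero h
  have hn := sub_zero_le h1
  obtain ⟨n, hn'⟩ : ∃ n, Nat.land x 255 = n + 1 := ⟨Nat.land x 255 - 1, by omega⟩
  rw [hn'] at h2
  have hpass := (k2_step hs h2).1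
  have hch := k2_all hs _ _ _ h2
  intro Ma Ba hMa hBa b hb1 hb2
  by_cases hex : ∃ c, U.testBit c = true ∧ M.testBit c = false ∧ B.testBit c = false ∧ dec c = b
  · obtain ⟨c, hc1, hc2, hc3, rfl⟩ := hex
    have hfree : (Nat.xor U (Nat.land U (Nat.lor M B))).testBit c = true := by
      rw [testBit_xor', testBit_land', testBit_lor', hc1, hc2, hc3]
      rfl
    have hg := hch c hfree
    refine hg Ma (insert (dec c) Ba) hMa ?_
    intro c' hc' hmem
    rw [testBit_lor', testBit_pow2]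
    rcases Finset.mem_insert.mp hmem with h3 | h3
    · have := dec_inj h3
      simp [this]
    · simp [hBa c' hc' h3]
  · refine hpass Ma (insert b Ba) hMa ?_
    intro c' hc' hmem
    rcases Finset.mem_insert.mp hmem with h3 | h3
    · by_contra hnB
      have hnB' : B.testBit c' = false := by simpa using hnB
      by_cases hMc : M.testBit c' = true
      · exact hb1 (h3 ▸ hMa c' hMc)
      · exact hex ⟨c', hc', by simpa using hMc, hnB', h3⟩
    · exact hBa c' hc' h3

/-! ### Views -/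

lemma vLoop_spec {P : ℕ → ℕ} : ∀ (f m st : ℕ), vLoop P f m st = 0 →
    ∀ c, m.testBit c = true → P c = 0
  | 0, m, _, h, c, hc => by
    have h0 : m = 0 := h
    rw [h0] at hc
    simp at hc
  | f + 1, m, st, h, c, hc => by
    have h1 : vLoop P (f + 1) m st =
      Nat.lor (P (Nat.land st 4095))
        (vLoop P f (Nat.xor m (Nat.shiftLeft 1 (Nat.land st 4095))) (Nat.shiftRight st 12)) := rfl
    rw [h1] at h
    obtain ⟨h2, h3⟩ := lor_zero h
    by_cases hcc : c = Nat.land st 4095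
    · rw [hcc]; exact h2
    · apply vLoop_spec f _ _ h3
      rw [testBit_xor', testBit_pow2, hc]
      have : decide (Nat.land st 4095 = c) = false := decide_eq_false (Ne.symm hcc)
      rw [this]; rfl

lemma testBit_pkK0 : pkK.testBit 0 = true := by decide +kernel
lemma testBit_pkK1 : pkK.testBit 4096 = true := by decide +kernel
lemma testBit_pkK2 : pkK.testBit 8192 = true := by decide +kernel

/-- Reading the packed masks. -/
lemma pk_bits {U M B g : ℕ} (hU : XG U) (hM : Sub M U) (_hB : Sub B U) (hg : g < 4096) :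
    (pk U M B).testBit g = U.testBit g ∧ (pk U M B).testBit (g + 4096) = M.testBit g ∧
      (pk U M B).testBit (g + 8192) = B.testBit g := by
  have hU' : ∀ q, 2048 ≤ q → U.testBit q = false := by
    intro q hq
    by_contra h
    have := (hU q (by simpa using h)).2
    omega
  have hM' : ∀ q, 2048 ≤ q → M.testBit q = false := by
    intro q hq
    by_contra h
    have := (hU q (hM q (by simpa using h))).2
    omega
  simp only [pk, testBit_lor', testBit_shiftLeft']
  refine ⟨?_, ?_, ?_⟩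
  · have h1 : decide (g ≥ 4096) = false := by simp; omega
    have h2 : decide (g ≥ 8192) = false := by simp; omega
    rw [h1, h2]; simp
  · have h1 : decide (g + 4096 ≥ 4096) = true := by simp
    have h2 : decide (g + 4096 ≥ 8192) = false := by simp; omega
    rw [h1, h2, hU' _ (by omega)]
    simp
  · have h1 : decide (g + 8192 ≥ 4096) = true := by simp
    have h2 : decide (g + 8192 ≥ 8192) = true := by simp
    have h3 : g + 8192 - 4096 = g + 4096 := by omega
    rw [h1, h2, hU' _ (by omega), h3, hM' _ (by omega)]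
    simp

/-- The isometry of a view. -/
def gIso (sw : Bool) (a b : ℤ) (ha : a = 1 ∨ a = -1) (hb : b = 1 ∨ b = -1) (ox oy : ℤ) : Iso :=
  ⟨sw, a, b, (ox, oy), ha, hb⟩

lemma xor31 : ∀ t, t < 64 → Nat.xor t 31 < 64 ∧ (Nat.xor t 31 < 32 → t ≤ 31 ∧ Nat.xor t 31 = 31 - t) := by
  decide

lemma xor0 (t : ℕ) : Nat.xor t 0 = t := by
  have : Nat.xor t 0 = t ^^^ 0 := rfl
  rw [this, Nat.xor_zero]

lemma land31 (c : ℕ) : Nat.land c 31 = c % 32 := by
  have : Nat.land c 31 = c &&& (2 ^ 5 - 1) := rfl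
  rw [this, Nat.and_two_pow_sub_one_eq_mod]

lemma land1 (c : ℕ) : Nat.land c 1 = c % 2 := by
  have : Nat.land c 1 = c &&& (2 ^ 1 - 1) := rfl
  rw [this, Nat.and_two_pow_sub_one_eq_mod]

lemma shiftRight6 (c : ℕ) : Nat.shiftRight c 6 = c / 64 := by
  have : Nat.shiftRight c 6 = c >>> 6 := rfl
  rw [this, Nat.shiftRight_eq_div_pow]

lemma shiftRight0 (c : ℕ) : Nat.shiftRight c 0 = c := rfl

/-- The value and the sign of one reflected or unreflected coordinate. -/
lemma coord {p f t : ℕ} (hf : f = 0 ∨ f = 1) (hp : p < 32) (ht : t < 32) :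
    ∃ (a ox : ℤ), (a = 1 ∨ a = -1) ∧ a = (if f = 0 then 1 else -1) ∧
      ox = (if f = 0 then (p : ℤ) else 31 - p) ∧
      Nat.xor (Nat.add t p) (Nat.mul f 31) < 64 ∧
      (Nat.xor (Nat.add t p) (Nat.mul f 31) < 32 →
        ((Nat.xor (Nat.add t p) (Nat.mul f 31) : ℕ) : ℤ) = a * t + ox) := by
  rcases hf with rfl | rfl
  · refine ⟨1, p, Or.inl rfl, by simp, by simp, ?_, ?_⟩
    · have : Nat.mul 0 31 = 0 := rfl
      rw [this, xor0]
      show t + p < 64
      omega
    · intro _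
      have : Nat.mul 0 31 = 0 := rfl
      rw [this, xor0]
      show ((t + p : ℕ) : ℤ) = _
      push_cast
      ring
  · have hlt : Nat.add t p < 64 := by
      show t + p < 64
      omega
    obtain ⟨h1, h2⟩ := xor31 _ hlt
    refine ⟨-1, 31 - p, Or.inr rfl, by simp, by simp, h1, ?_⟩
    intro hx
    obtain ⟨h3, h4⟩ := h2 hx
    have h5 : Nat.mul 1 31 = 31 := rfl
    rw [h5, h4]
    have h6 : Nat.add t p = t + p := rfl
    rw [h6] at h3 ⊢
    rw [Nat.cast_sub h3]
    push_cast
    ring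

lemma lor_shift6 {X Y : ℕ} (hX : X < 64) : Nat.lor (Nat.shiftLeft Y 6) X = Y * 64 + X := by
  have h1 : Nat.lor (Nat.shiftLeft Y 6) X = (Y <<< 6) ||| X := rfl
  rw [h1, Nat.shiftLeft_eq]
  have h2 := Nat.two_pow_add_eq_or_of_lt (i := 6) (b := X) hX Y
  have h3 : Y * 2 ^ 6 = 2 ^ 6 * Y := Nat.mul_comm _ _
  rw [h3, ← h2]
  have h4 : (2:ℕ) ^ 6 = 64 := by norm_num
  rw [h4]
  ring

/-- The code map of a view with the parameters `x`. -/
def gcx (x c : ℕ) : ℕ :=
  gc (Nat.mul (Nat.land x 1) 6) (Nat.xor (Nat.mul (Nat.land x 1) 6) 6)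
    (Nat.land (Nat.shiftRight x 3) 31) (Nat.land (Nat.shiftRight x 8) 31)
    (Nat.mul (Nat.land (Nat.shiftRight x 1) 1) 31)
    (Nat.mul (Nat.land (Nat.shiftRight x 2) 1) 31) c

/-- The geometry of a view: the parameters give an isometry which agrees with the code map. -/
lemma view_iso (x : ℕ) : ∃ g : Iso, ∀ c, c % 64 < 32 → c < 2048 →
    gcx x c < 4096 ∧ (gcx x c % 64 < 32 → gcx x c < 2048 → g.f (dec c) = dec (gcx x c)) := by
  unfold gcx
  have hp1 : Nat.land (Nat.shiftRight x 3) 31 < 32 := by rw [land31]; omega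
  have hp2 : Nat.land (Nat.shiftRight x 8) 31 < 32 := by rw [land31]; omega
  have hf1 : Nat.land (Nat.shiftRight x 1) 1 = 0 ∨ Nat.land (Nat.shiftRight x 1) 1 = 1 := by
    rw [land1]; omega
  have hf2 : Nat.land (Nat.shiftRight x 2) 1 = 0 ∨ Nat.land (Nat.shiftRight x 2) 1 = 1 := by
    rw [land1]; omega
  have hs0 : Nat.land x 1 = 0 ∨ Nat.land x 1 = 1 := by
    rw [land1]; omega
  generalize Nat.land (Nat.shiftRight x 3) 31 = p1 at *
  generalize Nat.land (Nat.shiftRight x 8) 31 = p2 at *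
  generalize Nat.land (Nat.shiftRight x 1) 1 = f1 at *
  generalize Nat.land (Nat.shiftRight x 2) 1 = f2 at *
  obtain ⟨a, ox, ha, ha', hox, -, -⟩ := coord hf1 hp1 (Nat.zero_lt_succ 31)
  obtain ⟨b, oy, hb, hb', hoy, -, -⟩ := coord hf2 hp2 (Nat.zero_lt_succ 31)
  rcases hs0 with hs0 | hs0
  · -- no exchange of the coordinates
    refine ⟨⟨false, a, b, (ox, oy), ha, hb⟩, ?_⟩
    intro c hc1 hc2
    have hk1 : Nat.mul (Nat.land x 1) 6 = 0 := by rw [hs0]
    have hk2 : Nat.xor (0:ℕ) 6 = 6 := rfl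
    rw [hk1, hk2]
    have hu : Nat.land (Nat.shiftRight c 0) 31 = c % 64 := by
      rw [shiftRight0, land31]; omega
    have hv : Nat.land (Nat.shiftRight c 6) 31 = c / 64 := by
      rw [shiftRight6, land31]; omega
    obtain ⟨a2, ox2, _, ha2, hox2, hX, hXe⟩ := coord (t := c % 64) hf1 hp1 hc1
    obtain ⟨b2, oy2, _, hb2, hoy2, hY, hYe⟩ := coord (t := c / 64) hf2 hp2 (by omega)
    have hgc : gc 0 6 p1 p2 (Nat.mul f1 31) (Nat.mul f2 31) c =
        Nat.xor (Nat.add (c / 64) p2) (Nat.mul f2 31) * 64 +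
          Nat.xor (Nat.add (c % 64) p1) (Nat.mul f1 31) := by
      simp only [gc]
      rw [hu, hv]
      exact lor_shift6 hX
    rw [hgc]
    generalize Nat.xor (Nat.add (c / 64) p2) (Nat.mul f2 31) = Y at *
    generalize Nat.xor (Nat.add (c % 64) p1) (Nat.mul f1 31) = X at *
    refine ⟨by omega, ?_⟩
    intro hg1 hg2
    have h1 : (Y * 64 + X) % 64 = X := by omega
    have h2 : (Y * 64 + X) / 64 = Y := by omega
    simp only [Iso.f, place, dec, Bool.false_eq_true, if_false, h1, h2, Prod.mk.injEq]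
    have hX32 : X < 32 := by omega
    have hY32 : Y < 32 := by omega
    subst ha2 hox2 hb2 hoy2 ha' hox hb' hoy
    exact ⟨(hXe hX32).symm, (hYe hY32).symm⟩
  · -- exchange of the coordinates
    refine ⟨⟨true, a, b, (ox, oy), ha, hb⟩, ?_⟩
    intro c hc1 hc2
    have hk1 : Nat.mul (Nat.land x 1) 6 = 6 := by rw [hs0]
    have hk2 : Nat.xor (6:ℕ) 6 = 0 := rfl
    rw [hk1, hk2]
    have hu : Nat.land (Nat.shiftRight c 0) 31 = c % 64 := by
      rw [shiftRight0, land31]; omega
    have hv : Nat.land (Nat.shiftRight c 6) 31 = c / 64 := by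
      rw [shiftRight6, land31]; omega
    obtain ⟨a2, ox2, _, ha2, hox2, hX, hXe⟩ := coord (t := c / 64) hf1 hp1 (by omega)
    obtain ⟨b2, oy2, _, hb2, hoy2, hY, hYe⟩ := coord (t := c % 64) hf2 hp2 hc1
    have hgc : gc 6 0 p1 p2 (Nat.mul f1 31) (Nat.mul f2 31) c =
        Nat.xor (Nat.add (c % 64) p2) (Nat.mul f2 31) * 64 +
          Nat.xor (Nat.add (c / 64) p1) (Nat.mul f1 31) := by
      simp only [gc]
      rw [hu, hv]
      exact lor_shift6 hX
    rw [hgc]
    generalize Nat.xor (Nat.add (c % 64) p2) (Nat.mul f2 31) = Y at *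
    generalize Nat.xor (Nat.add (c / 64) p1) (Nat.mul f1 31) = X at *
    refine ⟨by omega, ?_⟩
    intro hg1 hg2
    have h1 : (Y * 64 + X) % 64 = X := by omega
    have h2 : (Y * 64 + X) / 64 = Y := by omega
    simp only [Iso.f, place, dec, if_true, h1, h2, Prod.mk.injEq]
    have hX32 : X < 32 := by omega
    have hY32 : Y < 32 := by omega
    subst ha2 hox2 hb2 hoy2 ha' hox hb' hoy
    exact ⟨(hXe hX32).symm, (hYe hY32).symm⟩

/-- What the test of a view gives at one cell. -/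
lemma vP_spec {k1 k2 px py fx fy Ub Mb Bb Uv Mv Bv c : ℕ}
    (hb : XG Ub) (hMb : Sub Mb Ub) (hBb : Sub Bb Ub) (hv : XG Uv) (hMv : Sub Mv Uv) (hBv : Sub Bv Uv)
    (hc : c < 4096) (hg : gc k1 k2 px py fx fy c < 4096)
    (h : vP k1 k2 px py fx fy (pk Ub Mb Bb) (pk Uv Mv Bv) c = 0) :
    Uv.testBit (gc k1 k2 px py fx fy c) = Ub.testBit c ∧
      Mv.testBit (gc k1 k2 px py fx fy c) = Mb.testBit c ∧
      Bv.testBit (gc k1 k2 px py fx fy c) = Bb.testBit c := by
  have h1 := xor_zero h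
  obtain ⟨a1, a2, a3⟩ := pk_bits hb hMb hBb hc
  obtain ⟨b1, b2, b3⟩ := pk_bits hv hMv hBv hg
  have key : ∀ t, pkK.testBit t = true →
      (pk Uv Mv Bv).testBit (t + gc k1 k2 px py fx fy c) = (pk Ub Mb Bb).testBit (t + c) := by
    intro t ht
    have h2 := congrArg (fun n => Nat.testBit n t) h1
    simp only [testBit_land', testBit_shiftRight', ht, Bool.and_true] at h2
    exact h2
  have k0 := key 0 testBit_pkK0
  have k1' := key 4096 testBit_pkK1
  have k2' := key 8192 testBit_pkK2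
  rw [Nat.zero_add, Nat.zero_add] at k0
  rw [Nat.add_comm 4096, Nat.add_comm 4096] at k1'
  rw [Nat.add_comm 8192, Nat.add_comm 8192] at k2'
  refine ⟨?_, ?_, ?_⟩
  · rw [← b1, k0, a1]
  · rw [← b2, k1', a2]
  · rw [← b3, k2', a3]

lemma semV_M {tbl : ℕ → Ent} {i d M B U x : ℕ} (hs : ∀ j < i, (tbl j).Sem)
    (hMU : Sub M U) (hBU : Sub B U) (hX : XG U)
    (h : chkV tbl 11 i d M B U x = 0) : GoodM d M B U := by
  obtain ⟨h1, h2⟩ := lor_zero h
  have hlt : Nat.land (Nat.shiftRight x 21) 1048575 < i := sub_zero_le h1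
  have hS := hs _ hlt
  revert h2 hS
  generalize tbl (Nat.land (Nat.shiftRight x 21) 1048575) = e
  obtain ⟨k, d', m, b, u, y⟩ := e
  intro h2 hS
  obtain ⟨s1, s2, s3, s4, _⟩ := hS
  obtain ⟨h3, h4⟩ := lor_zero h2
  obtain ⟨h4, h5⟩ := lor_zero h4
  have hv := vLoop_spec _ _ _ h5
  have hk := bit_of_land h3
  have hd := sub_zero_le h4
  obtain ⟨g, hg⟩ := view_iso x
  have hvP : ∀ c, u.testBit c = true → U.testBit (gcx x c) = u.testBit c ∧
      M.testBit (gcx x c) = m.testBit c ∧ B.testBit (gcx x c) = b.testBit c :=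
    fun c hc => vP_spec s3 s1 s2 hX hMU hBU (by have := (s3 c hc).2; omega)
      (hg c (s3 c hc).1 (s3 c hc).2).1 (hv c hc)
  refine GoodM.depth_mono (GoodM.transfer g (gcx x) (fun c hc => ?_) s1 ?_ ?_ ?_ (s4 hk)) hd
  · have hU1 := (hvP c hc).1
    rw [hc] at hU1
    exact (hg c (s3 c hc).1 (s3 c hc).2).2 (hX _ hU1).1 (hX _ hU1).2
  · intro c hc
    rw [(hvP c (s1 c hc)).2.1]; exact hc
  · intro c hc
    rw [(hvP c hc).1]; exact hc
  · intro c hc hb'
    rw [← (hvP c hc).2.2]; exact hb'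

lemma semV_B {tbl : ℕ → Ent} {i d M B U x : ℕ} (hs : ∀ j < i, (tbl j).Sem)
    (hMU : Sub M U) (hBU : Sub B U) (hX : XG U)
    (h : chkV tbl 20 i d M B U x = 0) : GoodB d M B U := by
  obtain ⟨h1, h2⟩ := lor_zero h
  have hlt : Nat.land (Nat.shiftRight x 21) 1048575 < i := sub_zero_le h1
  have hS := hs _ hlt
  revert h2 hS
  generalize tbl (Nat.land (Nat.shiftRight x 21) 1048575) = e
  obtain ⟨k, d', m, b, u, y⟩ := e
  intro h2 hS
  obtain ⟨s1, s2, s3, _, s5⟩ := hS
  obtain ⟨h3, h4⟩ := lor_zero h2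
  obtain ⟨h4, h5⟩ := lor_zero h4
  have hv := vLoop_spec _ _ _ h5
  have hk := bit_of_land h3
  have hd := sub_zero_le h4
  obtain ⟨g, hg⟩ := view_iso x
  have hvP : ∀ c, u.testBit c = true → U.testBit (gcx x c) = u.testBit c ∧
      M.testBit (gcx x c) = m.testBit c ∧ B.testBit (gcx x c) = b.testBit c :=
    fun c hc => vP_spec s3 s1 s2 hX hMU hBU (by have := (s3 c hc).2; omega)
      (hg c (s3 c hc).1 (s3 c hc).2).1 (hv c hc)
  refine GoodB.depth_mono (GoodB.transfer g (gcx x) (fun c hc => ?_) s1 ?_ ?_ ?_ (s5 hk)) hd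
  · have hU1 := (hvP c hc).1
    rw [hc] at hU1
    exact (hg c (s3 c hc).1 (s3 c hc).2).2 (hX _ hU1).1 (hX _ hU1).2
  · intro c hc
    rw [(hvP c (s1 c hc)).2.1]; exact hc
  · intro c hc
    rw [(hvP c hc).1]; exact hc
  · intro c hc hb'
    rw [← (hvP c hc).2.2]; exact hb'

/-! ### Soundness of the whole table -/

theorem sem_step {tbl : ℕ → Ent} {i : ℕ} (hs : ∀ j < i, (tbl j).Sem)
    (h : checkEnt tbl i = 0) : (tbl i).Sem := by
  unfold checkEnt at h
  generalize tbl i = e at h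
  obtain ⟨k, d, M, B, U, x⟩ := e
  obtain ⟨hwf, hk⟩ := lor_zero h
  obtain ⟨w1, w2, w3⟩ := wf_spec hwf
  refine ⟨w1, w2, w3, ?_, ?_⟩
  · intro hM
    match k, hk, hM with
    | 0, hk, _ => exact sem0 hk
    | 1, hk, _ => exact sem1 hs hk
    | 2, _, hM => exact absurd (show Nat.testBit 11 2 = true from hM) (by decide)
    | 3, hk, _ => exact semV_M hs w1 w2 w3 hk
    | 4, _, hM => exact absurd (show Nat.testBit 11 4 = true from hM) (by decide)
    | _ + 5, hk, _ =>
      have h1 : (1:ℕ) = 0 := hk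
      exact absurd h1 (by decide)
  · intro hB
    match k, hk, hB with
    | 0, _, hB => exact absurd (show Nat.testBit 20 0 = true from hB) (by decide)
    | 1, _, hB => exact absurd (show Nat.testBit 20 1 = true from hB) (by decide)
    | 2, hk, _ => exact sem2 hs hk
    | 3, _, hB => exact absurd (show Nat.testBit 20 3 = true from hB) (by decide)
    | 4, hk, _ => exact semV_B hs w1 w2 w3 hk
    | _ + 5, hk, _ =>
      have h1 : (1:ℕ) = 0 := hk
      exact absurd h1 (by decide)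

theorem sem_all {tbl : ℕ → Ent} {N : ℕ} (h : ∀ i < N, checkEnt tbl i = 0) :
    ∀ i < N, (tbl i).Sem := by
  intro i
  induction i using Nat.strong_induction_on with
  | _ i ih =>
    intro hi
    exact sem_step (fun j hj => ih j hj (hj.trans hi)) (h i hi)

/-- The final step: a Maker entry without stones gives the game statement. -/
theorem win_of_root {e : Ent} (hs : e.Sem) (hk : IsM e.kind) (hM : e.M = 0) :
    MakerWinsWithin e.depth ∅ ∅ := by
  obtain ⟨_, _, _, h, _⟩ := hs
  refine h hk ∅ ∅ ?_ ?_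
  · intro c hc
    rw [hM] at hc
    simp at hc
  · intro c _ hmem
    simp at hmem

/-- From a checked table and a checked list of references: the replies outside a mask `Hd`. -/
theorem root_partial {tbl : ℕ → Ent} {N d M U n st Hd : ℕ} (hs : ∀ j < N, (tbl j).Sem)
    (hn : n ≠ 0)
    (h : k2Loop tbl N d M 0 U n st (Nat.xor U (Nat.land U (Nat.lor M Hd))) = 0)
    (Ma : Finset Cell) (hMa : ∀ c, M.testBit c = true → dec c ∈ Ma) (b : Cell)
    (hb1 : ∀ c, M.testBit c = true → dec c ≠ b) (hb2 : ∀ c, U.testBit c = true →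
      Hd.testBit c = true → dec c ≠ b) :
    MakerWinsWithin d Ma {b} := by
  obtain ⟨n', rfl⟩ : ∃ n', n = n' + 1 := ⟨n - 1, by omega⟩
  have hfirst := (k2_step hs h).1
  have hch := k2_all hs _ _ _ h
  by_cases hex : ∃ c, U.testBit c = true ∧ dec c = b
  · obtain ⟨c, hc1, hc2⟩ := hex
    have hM : M.testBit c = false := by
      by_contra hcon
      exact hb1 c (by simpa using hcon) hc2
    have hH : Hd.testBit c = false := by
      by_contra hcon
      exact hb2 c hc1 (by simpa using hcon) hc2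
    have hfree : (Nat.xor U (Nat.land U (Nat.lor M Hd))).testBit c = true := by
      rw [testBit_xor', testBit_land', testBit_lor', hc1, hM, hH]
      rfl
    refine hch c hfree Ma {b} hMa ?_
    intro c' _ hmem
    rw [testBit_lor', testBit_pow2]
    have h3 : dec c' = dec c := by
      rw [hc2]; exact Finset.mem_singleton.mp hmem
    have := dec_inj h3
    simp [this]
  · refine hfirst Ma {b} hMa ?_
    intro c' hc' hmem
    exact absurd ⟨c', hc', Finset.mem_singleton.mp hmem⟩ hex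

end Vale.Agent.Snaky
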