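import Vale.Agent.Snaky.P2.Final
import Vale.Agent.Snaky.P3.Final

/-!
The full game: Maker claims the origin. Every Breaker reply outside the four edge neighbours is
handled by `P2.win`, and the four edge neighbours are images of the reply `(1, 0)`, handled by
`P3.win`.
-/

namespace Vale.Agent.Snaky

/-- Maker wins the reply `(1, 0)` within `19` further moves. -/
theorem reply_right : MakerWinsWithin 19 {((0 : ℤ), (0 : ℤ))} {((1 : ℤ), (0 : ℤ))} := by
  have h := P3.win
  rw [P3.win_depth] at h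
  exact h

/-- The image of a statement about the reply `(1, 0)` under a signed permutation that fixes the
origin. -/
theorem reply_image (g : Iso) (h0 : g.f ((0 : ℤ), (0 : ℤ)) = ((0 : ℤ), (0 : ℤ))) :
    MakerWinsWithin 19 {((0 : ℤ), (0 : ℤ))} {g.f ((1 : ℤ), (0 : ℤ))} := by
  have h2 := MakerWinsWithin.image g _ _ _ reply_right
  simp only [Finset.image_singleton] at h2
  rw [h0] at h2
  exact h2

/-- Maker wins against each of the four edge-adjacent replies. -/
theorem reply_edge (b : Cell) (hb : b.1.natAbs + b.2.natAbs ≤ 1) (hb0 : b ≠ ((0 : ℤ), (0 : ℤ))) :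
    MakerWinsWithin 19 {((0 : ℤ), (0 : ℤ))} {b} := by
  obtain ⟨x, y⟩ := b
  simp only at hb
  have hcases : (x = 1 ∧ y = 0) ∨ (x = -1 ∧ y = 0) ∨ (x = 0 ∧ y = 1) ∨ (x = 0 ∧ y = -1) := by
    by_cases hx : x = 0
    · subst hx
      have hy : y ≠ 0 := fun hy => hb0 (by simp [hy])
      omega
    · omega
  rcases hcases with ⟨rfl, rfl⟩ | ⟨rfl, rfl⟩ | ⟨rfl, rfl⟩ | ⟨rfl, rfl⟩
  · exact reply_right
  · let g : Iso := ⟨false, -1, 1, ((0 : ℤ), (0 : ℤ)), Or.inr rfl, Or.inl rfl⟩
    have h := reply_image g (by simp [g, Iso.f, place])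
    have h1 : g.f ((1 : ℤ), (0 : ℤ)) = ((-1 : ℤ), (0 : ℤ)) := by simp [g, Iso.f, place]
    rwa [h1] at h
  · let g : Iso := ⟨true, 1, 1, ((0 : ℤ), (0 : ℤ)), Or.inl rfl, Or.inl rfl⟩
    have h := reply_image g (by simp [g, Iso.f, place])
    have h1 : g.f ((1 : ℤ), (0 : ℤ)) = ((0 : ℤ), (1 : ℤ)) := by simp [g, Iso.f, place]
    rwa [h1] at h
  · let g : Iso := ⟨true, 1, -1, ((0 : ℤ), (0 : ℤ)), Or.inl rfl, Or.inr rfl⟩
    have h := reply_image g (by simp [g, Iso.f, place])
    have h1 : g.f ((1 : ℤ), (0 : ℤ)) = ((0 : ℤ), (-1 : ℤ)) := by simp [g, Iso.f, place]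
    rwa [h1] at h

/-- Maker has a winning strategy on the empty board, and it wins within `20` moves: it claims the
origin, and whatever Breaker answers it wins within `19` further moves. -/
theorem maker_wins : MakerWinsWithin 20 ∅ ∅ := by
  refine ⟨((0 : ℤ), (0 : ℤ)), by simp, by simp, Or.inr ?_⟩
  intro b hb1 _
  have h0 : insert ((0 : ℤ), (0 : ℤ)) (∅ : Finset Cell) = {((0 : ℤ), (0 : ℤ))} := rfl
  have h1 : insert b (∅ : Finset Cell) = {b} := rfl
  rw [h0, h1]
  have hb0 : b ≠ ((0 : ℤ), (0 : ℤ)) := by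
    intro h
    apply hb1
    rw [h]
    exact Finset.mem_insert_self _ _
  by_cases hb : b.1.natAbs + b.2.natAbs ≤ 1
  · exact reply_edge b hb hb0
  · exact MakerWinsWithin.mono_le (by norm_num) (P2.win b hb)

end Vale.Agent.Snaky
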