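import Mathlib

/-!
The achievement game for the Snaky hexomino on the board `ℤ × ℤ`.
-/

namespace Vale.Agent.Snaky

/-- A cell of the square grid, indexed by its lower-left corner. -/
abbrev Cell := ℤ × ℤ

/-- The Snaky hexomino. -/
def snakyShape : Finset Cell := {(0, 0), (1, 0), (2, 0), (3, 0), (3, 1), (4, 1)}

/-- The map `p ↦ t + R p` where `R` is a `2 × 2` signed permutation matrix: `swap` says whether the
coordinates are exchanged, and `a`, `b` are the signs (values `1` or `-1`). -/
def place (swap : Bool) (a b : ℤ) (t : Cell) (p : Cell) : Cell :=
  if swap then (a * p.2 + t.1, b * p.1 + t.2) else (a * p.1 + t.1, b * p.2 + t.2)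

/-- `C` is an allowed copy of Snaky: the image of the hexomino under one of the eight signed
permutation matrices followed by a translation. -/
def IsCopy (C : Finset Cell) : Prop :=
  ∃ (swap : Bool) (a b : ℤ) (t : Cell), (a = 1 ∨ a = -1) ∧ (b = 1 ∨ b = -1) ∧
    C = snakyShape.image (place swap a b t)

/-- The cell set `M` contains all cells of some allowed copy of Snaky. -/
def HasCopy (M : Finset Cell) : Prop := ∃ C, IsCopy C ∧ C ⊆ M

/-- `MakerWinsWithin n M B`: it is Maker's turn, Maker owns the cells `M`, Breaker owns the cells
`B`, and Maker can force a win within at most `n` further Maker moves against every legal play of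
Breaker. Maker claims an unclaimed cell `m`; either this completes a copy, or for every unclaimed
cell `b` claimed by Breaker in reply, Maker can force a win within `n - 1` further moves. -/
def MakerWinsWithin : ℕ → Finset Cell → Finset Cell → Prop
  | 0, _, _ => False
  | n + 1, M, B => ∃ m, m ∉ M ∧ m ∉ B ∧
      (HasCopy (insert m M) ∨
        ∀ b, b ∉ insert m M → b ∉ B → MakerWinsWithin n (insert m M) (insert b B))

end Vale.Agent.Snaky
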